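import Mathlib

/-!
# P207, all dimensions: critical points of strongly convex functions, with estimates
-/

open Set Filter Topology Metric
open scoped ContDiff

set_option linter.unusedSectionVars false

noncomputable section

namespace Vale.Agent.P207.H957

variable {E : Type*} [NormedAddCommGroup E] [InnerProductSpace ℝ E] [CompleteSpace E]

/-- the Hessian is bounded below by `c` on a convex set -/
structure SC (G : E → ℝ) (S : Set E) (c : ℝ) : Prop where
  conv : Convex ℝ S
  diff : ∀ s ∈ S, DifferentiableAt ℝ G s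
  diff2 : ∀ s ∈ S, DifferentiableAt ℝ (gradient G) s
  pos : ∀ s ∈ S, ∀ v, c * ‖v‖ ^ 2 ≤ inner ℝ (fderiv ℝ (gradient G) s v) v

variable {G : E → ℝ} {S : Set E} {c : ℝ}

theorem seg_mem {S : Set E} (hS : Convex ℝ S) {s s' : E} (hs : s ∈ S) (hs' : s' ∈ S) {t : ℝ}
    (ht : t ∈ Icc (0 : ℝ) 1) : s + t • (s' - s) ∈ S := by
  have := hS.add_smul_sub_mem hs hs' ht
  exact this

theorem SC.mono (h : SC G S c) {s s' : E} (hs : s ∈ S) (hs' : s' ∈ S) :
    c * ‖s' - s‖ ^ 2 ≤ inner ℝ (gradient G s' - gradient G s) (s' - s) := by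
  set w := s' - s with hw
  have hline : ∀ t : ℝ, HasDerivAt (fun t : ℝ => s + t • w) w t := by
    intro t
    have := ((hasDerivAt_id t).smul_const w).const_add s
    simpa using this
  have hd : ∀ t ∈ Icc (0 : ℝ) 1, HasDerivAt (fun t : ℝ => inner ℝ (gradient G (s + t • w)) w)
      (inner ℝ (fderiv ℝ (gradient G) (s + t • w) w) w) t := by
    intro t ht
    have h0 : HasFDerivAt (gradient G) (fderiv ℝ (gradient G) (s + t • w)) (s + t • w) :=
      (h.diff2 _ (seg_mem h.conv hs hs' ht)).hasFDerivAt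
    have h1 : HasDerivAt (fun t : ℝ => gradient G (s + t • w))
        (fderiv ℝ (gradient G) (s + t • w) w) t := by
      have h1 := HasFDerivAt.comp_hasDerivAt (f := fun t : ℝ => s + t • w) (l := gradient G) t h0
        (hline t)
      exact h1
    have h2 := h1.inner ℝ (hasDerivAt_const t w)
    simpa using h2
  have key := (convex_Icc (0 : ℝ) 1).mul_sub_le_image_sub_of_le_deriv
    (f := fun t : ℝ => inner ℝ (gradient G (s + t • w)) w) (C := c * ‖w‖ ^ 2)
    (fun t ht => (hd t ht).continuousAt.continuousWithinAt)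
    (fun t ht => (hd t (interior_subset ht)).differentiableAt.differentiableWithinAt)
    (fun t ht => by
      rw [(hd t (interior_subset ht)).deriv]
      exact h.pos _ (seg_mem h.conv hs hs' (interior_subset ht)) w)
    0 (by simp) 1 (by simp) zero_le_one
  simp only [sub_zero, mul_one, one_smul, zero_smul, add_zero] at key
  have e : s + w = s' := by rw [hw]; abel
  rw [e, ← inner_sub_left] at key
  exact key

theorem inner_gradient' {x : E} (v : E) :
    inner ℝ (gradient G x) v = fderiv ℝ G x v := by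
  rw [gradient]
  exact InnerProductSpace.toDual_symm_apply

theorem SC.lower (h : SC G S c) {s s' : E} (hs : s ∈ S) (hs' : s' ∈ S) :
    G s + inner ℝ (gradient G s) (s' - s) + c / 2 * ‖s' - s‖ ^ 2 ≤ G s' := by
  set w := s' - s with hw
  have hline : ∀ t : ℝ, HasDerivAt (fun t : ℝ => s + t • w) w t := by
    intro t
    have := ((hasDerivAt_id t).smul_const w).const_add s
    simpa using this
  have hd : ∀ t ∈ Icc (0 : ℝ) 1, HasDerivAt
      (fun t : ℝ => G (s + t • w) - t * inner ℝ (gradient G s) w - c / 2 * ‖w‖ ^ 2 * t ^ 2)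
      (inner ℝ (gradient G (s + t • w)) w - inner ℝ (gradient G s) w - c * ‖w‖ ^ 2 * t) t := by
    intro t ht
    have h0 := h.diff _ (seg_mem h.conv hs hs' ht)
    have h1 : HasDerivAt (fun t : ℝ => G (s + t • w)) (fderiv ℝ G (s + t • w) w) t :=
      h0.hasFDerivAt.comp_hasDerivAt t (hline t)
    rw [← inner_gradient'] at h1
    have h2 := (h1.sub ((hasDerivAt_id t).mul_const (inner ℝ (gradient G s) w))).sub
      ((hasDerivAt_pow 2 t).const_mul (c / 2 * ‖w‖ ^ 2))
    refine h2.congr_deriv ?_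
    simp
    ring
  have key := (convex_Icc (0 : ℝ) 1).mul_sub_le_image_sub_of_le_deriv (C := 0)
    (f := fun t : ℝ => G (s + t • w) - t * inner ℝ (gradient G s) w - c / 2 * ‖w‖ ^ 2 * t ^ 2)
    (fun t ht => (hd t ht).continuousAt.continuousWithinAt)
    (fun t ht => (hd t (interior_subset ht)).differentiableAt.differentiableWithinAt)
    (fun t ht => by
      rw [(hd t (interior_subset ht)).deriv]
      have ht' := interior_subset ht
      rcases eq_or_lt_of_le ht'.1 with h0 | h0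
      · rw [← h0]; simp
      have := h.mono hs (seg_mem h.conv hs hs' ht')
      rw [← hw, add_sub_cancel_left, norm_smul, mul_pow, Real.norm_eq_abs, sq_abs,
        inner_smul_right] at this
      have h3 : c * ‖w‖ ^ 2 * t ≤ inner ℝ (gradient G (s + t • w) - gradient G s) w := by
        have h4 : t * (c * ‖w‖ ^ 2 * t) ≤ t * inner ℝ (gradient G (s + t • w) - gradient G s) w := by
          calc t * (c * ‖w‖ ^ 2 * t) = c * (t ^ 2 * ‖w‖ ^ 2) := by ring
            _ ≤ _ := this
        exact le_of_mul_le_mul_left h4 h0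
      rw [inner_sub_left] at h3
      linarith)
    0 (by simp) 1 (by simp) zero_le_one
  simp only [sub_zero, mul_one, one_smul, zero_smul, add_zero, one_mul, zero_mul, one_pow] at key
  have e : s + w = s' := by rw [hw]; abel
  rw [e] at key
  have : c / 2 * ‖w‖ ^ 2 * (0 : ℝ) ^ 2 = 0 := by ring
  linarith

theorem exists_crit [FiniteDimensional ℝ E] {q : E} {ρ : ℝ} (hρ : 0 < ρ) (hc : 0 < c)
    (h : SC G (closedBall q ρ) c) (hq : ‖gradient G q‖ < c * ρ / 2) :
    ∃ q' ∈ ball q ρ, gradient G q' = 0 ∧ ‖q' - q‖ ≤ ‖gradient G q‖ / c := by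
  have hqm : q ∈ closedBall q ρ := mem_closedBall_self hρ.le
  have hcont : ContinuousOn G (closedBall q ρ) := fun s hs =>
    (h.diff s hs).continuousAt.continuousWithinAt
  obtain ⟨q', hq', hmin⟩ := (isCompact_closedBall q ρ).exists_isMinOn ⟨q, hqm⟩ hcont
  have hin : q' ∈ ball q ρ := by
    by_contra hnot
    have hn : ‖q' - q‖ = ρ := by
      have h1 : dist q' q ≤ ρ := hq'
      have h2 : ¬ dist q' q < ρ := hnot
      rw [← dist_eq_norm]
      exact le_antisymm h1 (not_lt.1 h2)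
    have h1 := h.lower hqm hq'
    have h2 : G q' ≤ G q := hmin hqm
    have h3 := abs_real_inner_le_norm (gradient G q) (q' - q)
    have h4 := neg_le_of_abs_le h3
    rw [hn] at h1 h4
    have : ‖gradient G q‖ * ρ < c * ρ / 2 * ρ := by gcongr
    nlinarith
  have hcrit : gradient G q' = 0 := by
    have h1 : IsLocalMin G q' := hmin.isLocalMin (mem_of_superset (isOpen_ball.mem_nhds hin)
      ball_subset_closedBall)
    rw [gradient, h1.fderiv_eq_zero, map_zero]
  refine ⟨q', hin, hcrit, ?_⟩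
  have h1 := h.mono hqm hq'
  rw [hcrit, zero_sub, inner_neg_left] at h1
  have h2 := neg_le_of_abs_le (abs_real_inner_le_norm (gradient G q) (q' - q))
  have h3 : c * ‖q' - q‖ ^ 2 ≤ ‖gradient G q‖ * ‖q' - q‖ := by linarith
  rw [le_div_iff₀ hc]
  rcases eq_or_lt_of_le (norm_nonneg (q' - q)) with h0 | h0
  · rw [← h0, zero_mul]; exact norm_nonneg _
  · have : (‖q' - q‖ * c) * ‖q' - q‖ ≤ ‖gradient G q‖ * ‖q' - q‖ := by nlinarith
    exact le_of_mul_le_mul_right this h0

theorem SC.unique (hc : 0 < c) (h : SC G S c) {s s' : E} (hs : s ∈ S) (hs' : s' ∈ S)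
    (h1 : gradient G s = 0) (h2 : gradient G s' = 0) : s = s' := by
  have := h.mono hs hs'
  rw [h1, h2, sub_zero, inner_zero_left] at this
  have h3 : ‖s' - s‖ ^ 2 ≤ 0 := by
    by_contra hcon
    have := mul_pos hc (not_le.1 hcon)
    linarith
  have h4 : ‖s' - s‖ = 0 := by
    have := sq_nonneg ‖s' - s‖
    exact pow_eq_zero_iff (two_ne_zero) |>.1 (le_antisymm h3 this)
  exact (sub_eq_zero.1 (norm_eq_zero.1 h4)).symm

/-- upper bound of the value at a point near a critical point -/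
theorem upper (hS : Convex ℝ S) {M : ℝ} (hd : ∀ s ∈ S, DifferentiableAt ℝ G s)
    (hd2 : ∀ s ∈ S, DifferentiableAt ℝ (gradient G) s)
    (hM : ∀ s ∈ S, ‖fderiv ℝ (gradient G) s‖ ≤ M) {s s' : E} (hs : s ∈ S) (hs' : s' ∈ S)
    (hcr : gradient G s = 0) : |G s' - G s| ≤ M * ‖s' - s‖ ^ 2 := by
  have hM0 : 0 ≤ M := (norm_nonneg _).trans (hM s hs)
  have hseg : ∀ t ∈ segment ℝ s s', ‖fderiv ℝ G t‖ ≤ M * ‖s' - s‖ := by
    intro t ht
    have htS : t ∈ S := hS.segment_subset hs hs' ht
    have h1 : ‖gradient G t - gradient G s‖ ≤ M * ‖t - s‖ :=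
      hS.norm_image_sub_le_of_norm_fderiv_le (𝕜 := ℝ) hd2 hM hs htS
    rw [hcr, sub_zero] at h1
    have h2 : ‖gradient G t‖ = ‖fderiv ℝ G t‖ := by
      rw [gradient, LinearIsometryEquiv.norm_map]
    rw [← h2]
    refine h1.trans ?_
    gcongr
    obtain ⟨a, b, ha, hb, hab, rfl⟩ := ht
    have e : a • s + b • s' - s = b • (s' - s) := by
      have : a = 1 - b := by linarith
      rw [this]; module
    rw [e, norm_smul, Real.norm_eq_abs, abs_of_nonneg hb]
    have : b ≤ 1 := by linarith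
    calc b * ‖s' - s‖ ≤ 1 * ‖s' - s‖ := by gcongr
      _ = _ := one_mul _
  have h3 := (convex_segment s s').norm_image_sub_le_of_norm_fderiv_le (𝕜 := ℝ)
    (f := G) (C := M * ‖s' - s‖) (fun t ht => hd t (hS.segment_subset hs hs' ht)) hseg
    (left_mem_segment ℝ s s') (right_mem_segment ℝ s s')
  rw [Real.norm_eq_abs] at h3
  calc |G s' - G s| ≤ M * ‖s' - s‖ * ‖s' - s‖ := h3
    _ = _ := by ring

/-- second order expansion of a map -/
theorem second {F : Type*} [NormedAddCommGroup F] [NormedSpace ℝ F] {K : E → F}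
    (hS : Convex ℝ S) {M : ℝ} (hd : ∀ s ∈ S, DifferentiableAt ℝ K s)
    (hd2 : ∀ s ∈ S, DifferentiableAt ℝ (fderiv ℝ K) s)
    (hM : ∀ s ∈ S, ‖fderiv ℝ (fderiv ℝ K) s‖ ≤ M) {s s' : E} (hs : s ∈ S) (hs' : s' ∈ S) :
    ‖K s' - K s - fderiv ℝ K s (s' - s)‖ ≤ M * ‖s' - s‖ ^ 2 := by
  have hM0 : 0 ≤ M := (norm_nonneg (fderiv ℝ (fderiv ℝ K) s)).trans (hM s hs)
  have hbd : ∀ t ∈ segment ℝ s s', ‖fderiv ℝ K t - fderiv ℝ K s‖ ≤ M * ‖s' - s‖ := by
    intro t ht
    have htS : t ∈ S := hS.segment_subset hs hs' ht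
    have h1 : ‖fderiv ℝ K t - fderiv ℝ K s‖ ≤ M * ‖t - s‖ :=
      hS.norm_image_sub_le_of_norm_fderiv_le (𝕜 := ℝ) hd2 hM hs htS
    refine h1.trans ?_
    gcongr
    obtain ⟨a, b, ha, hb, hab, rfl⟩ := ht
    have e : a • s + b • s' - s = b • (s' - s) := by
      have : a = 1 - b := by linarith
      rw [this]; module
    rw [e, norm_smul, Real.norm_eq_abs, abs_of_nonneg hb]
    have : b ≤ 1 := by linarith
    calc b * ‖s' - s‖ ≤ 1 * ‖s' - s‖ := by gcongr
      _ = _ := one_mul _
  have h3 := (convex_segment s s').norm_image_sub_le_of_norm_hasFDerivWithin_le (𝕜 := ℝ)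
    (f := fun t => K t - fderiv ℝ K s t) (f' := fun t => fderiv ℝ K t - fderiv ℝ K s)
    (C := M * ‖s' - s‖)
    (fun t ht => ((hd t (hS.segment_subset hs hs' ht)).hasFDerivAt.sub
      (fderiv ℝ K s).hasFDerivAt).hasFDerivWithinAt) hbd
    (left_mem_segment ℝ s s') (right_mem_segment ℝ s s')
  calc ‖K s' - K s - fderiv ℝ K s (s' - s)‖
      = ‖K s' - fderiv ℝ K s s' - (K s - fderiv ℝ K s s)‖ := by
        rw [map_sub]; congr 1; abel
    _ ≤ M * ‖s' - s‖ * ‖s' - s‖ := h3
    _ = _ := by ring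

/-- second order expansion of the value, near a critical point `s` (trapezoidal rule) -/
theorem trap (hS : Convex ℝ S) {M : ℝ} (hd : ∀ s ∈ S, DifferentiableAt ℝ G s)
    (hd2 : ∀ s ∈ S, DifferentiableAt ℝ (gradient G) s)
    (hd3 : ∀ s ∈ S, DifferentiableAt ℝ (fderiv ℝ (gradient G)) s)
    (hM : ∀ s ∈ S, ‖fderiv ℝ (fderiv ℝ (gradient G)) s‖ ≤ M) {s s' : E} (hs : s ∈ S)
    (hs' : s' ∈ S) (hcr : gradient G s = 0) :
    |G s' - G s - 1 / 2 * inner ℝ (gradient G s') (s' - s)| ≤ M * ‖s' - s‖ ^ 3 := by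
  have hM0 : 0 ≤ M := (norm_nonneg (fderiv ℝ (fderiv ℝ (gradient G)) s)).trans (hM s hs)
  set w := s' - s with hw
  have hline : ∀ t : ℝ, HasDerivAt (fun t : ℝ => s + t • w) w t := by
    intro t
    have := ((hasDerivAt_id t).smul_const w).const_add s
    simpa using this
  set ψ : ℝ → ℝ := fun t => G (s + t • w) - t / 2 * inner ℝ (gradient G (s + t • w)) w with hψ
  have hd' : ∀ t ∈ Icc (0 : ℝ) 1, HasDerivAt ψ
      (1 / 2 * inner ℝ (gradient G (s + t • w) - t • fderiv ℝ (gradient G) (s + t • w) w) w) t := by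
    intro t ht
    have hm := seg_mem hS hs hs' ht
    have h0 := hd _ hm
    have h1 : HasDerivAt (fun t : ℝ => G (s + t • w)) (fderiv ℝ G (s + t • w) w) t :=
      h0.hasFDerivAt.comp_hasDerivAt t (hline t)
    rw [← inner_gradient'] at h1
    have h2 : HasFDerivAt (gradient G) (fderiv ℝ (gradient G) (s + t • w)) (s + t • w) :=
      (hd2 _ hm).hasFDerivAt
    have h3 : HasDerivAt (fun t : ℝ => gradient G (s + t • w))
        (fderiv ℝ (gradient G) (s + t • w) w) t := by
      have h1 := HasFDerivAt.comp_hasDerivAt (f := fun t : ℝ => s + t • w) (l := gradient G) t h2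
        (hline t)
      exact h1
    have h4 := h3.inner ℝ (hasDerivAt_const t w)
    have h5 := h1.sub (((hasDerivAt_id t).div_const 2).mul h4)
    refine h5.congr_deriv ?_
    simp only [inner_zero_right, zero_add, id_eq, inner_sub_left, inner_smul_left,
      RCLike.conj_to_real]
    ring
  have hbd : ∀ t ∈ Icc (0 : ℝ) 1,
      ‖1 / 2 * inner ℝ (gradient G (s + t • w) - t • fderiv ℝ (gradient G) (s + t • w) w) w‖
        ≤ M * ‖w‖ ^ 3 := by
    intro t ht
    have hm := seg_mem hS hs hs' ht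
    have h1 := second hS hd2 hd3 hM hm hs
    rw [hcr] at h1
    have e : s - (s + t • w) = -(t • w) := by abel
    rw [e, map_neg, map_smul] at h1
    have h2 : ‖gradient G (s + t • w) - t • fderiv ℝ (gradient G) (s + t • w) w‖
        ≤ M * ‖w‖ ^ 2 := by
      calc ‖gradient G (s + t • w) - t • fderiv ℝ (gradient G) (s + t • w) w‖
          = ‖0 - gradient G (s + t • w) - -(t • fderiv ℝ (gradient G) (s + t • w) w)‖ := by
            rw [← norm_neg]; congr 1; abel
        _ ≤ M * ‖-(t • w)‖ ^ 2 := h1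
        _ = M * (t ^ 2 * ‖w‖ ^ 2) := by
            rw [norm_neg, norm_smul, mul_pow, Real.norm_eq_abs, sq_abs]
        _ ≤ M * (1 * ‖w‖ ^ 2) := by
            gcongr
            exact pow_le_one₀ ht.1 ht.2
        _ = _ := by ring
    rw [norm_mul, Real.norm_eq_abs, Real.norm_eq_abs]
    have h3 := abs_real_inner_le_norm
      (gradient G (s + t • w) - t • fderiv ℝ (gradient G) (s + t • w) w) w
    have h4 : |(1 / 2 : ℝ)| ≤ 1 := by norm_num [abs_of_pos]
    calc |(1 / 2 : ℝ)| * |inner ℝ (gradient G (s + t • w) - t • fderiv ℝ (gradient G) (s + t • w) w) w|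
        ≤ 1 * (M * ‖w‖ ^ 2 * ‖w‖) := by
          gcongr
          exact h3.trans (by gcongr)
      _ = _ := by ring
  have key := (convex_Icc (0 : ℝ) 1).norm_image_sub_le_of_norm_hasDerivWithin_le (f := ψ)
    (fun t ht => (hd' t ht).hasDerivWithinAt) hbd (by simp : (0 : ℝ) ∈ Icc (0 : ℝ) 1)
    (by simp : (1 : ℝ) ∈ Icc (0 : ℝ) 1)
  have e0 : ψ 0 = G s := by simp [hψ]
  have e1 : ψ 1 = G s' - 1 / 2 * inner ℝ (gradient G s') w := by
    have e : s + w = s' := by rw [hw]; abel
    simp [hψ, e]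
  rw [e0, e1, sub_zero, norm_one, mul_one, Real.norm_eq_abs] at key
  calc |G s' - G s - 1 / 2 * inner ℝ (gradient G s') w|
      = |G s' - 1 / 2 * inner ℝ (gradient G s') w - G s| := by congr 1; ring
    _ ≤ _ := key

/-- `H` is invertible, and its inverse is bounded by `1 / c`, if `c ‖v‖² ≤ ⟪H v, v⟫` -/
theorem inv_of_pos [FiniteDimensional ℝ E] {H : E →L[ℝ] E} (hc : 0 < c)
    (h : ∀ v, c * ‖v‖ ^ 2 ≤ inner ℝ (H v) v) :
    (∀ v, Ring.inverse H (H v) = v) ∧ (∀ v, H (Ring.inverse H v) = v) ∧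
      ∀ v, ‖Ring.inverse H v‖ ≤ ‖v‖ / c := by
  have hlow : ∀ v, c * ‖v‖ ≤ ‖H v‖ := by
    intro v
    rcases eq_or_lt_of_le (norm_nonneg v) with h0 | h0
    · rw [← h0, mul_zero]; exact norm_nonneg _
    · have h1 := (h v).trans ((le_abs_self _).trans (abs_real_inner_le_norm (H v) v))
      have h2 : (c * ‖v‖) * ‖v‖ ≤ ‖H v‖ * ‖v‖ := by
        calc (c * ‖v‖) * ‖v‖ = c * ‖v‖ ^ 2 := by ring
          _ ≤ _ := h1
      exact le_of_mul_le_mul_right h2 h0
  have hinj : Function.Injective H := by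
    intro v v' e
    have h1 := hlow (v - v')
    rw [map_sub, e, sub_self, norm_zero] at h1
    have h2 : ‖v - v'‖ = 0 := by
      have := norm_nonneg (v - v')
      nlinarith
    exact sub_eq_zero.1 (norm_eq_zero.1 h2)
  have hu : IsUnit H := by
    let e : E ≃ₗ[ℝ] E := LinearEquiv.ofInjectiveEndo (H : E →ₗ[ℝ] E) hinj
    have he : ∀ v, e v = H v := fun v => rfl
    refine ⟨⟨H, (LinearMap.toContinuousLinearMap (e.symm : E →ₗ[ℝ] E)), ?_, ?_⟩, rfl⟩
    · ext v
      change H (e.symm v) = v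
      rw [← he, LinearEquiv.apply_symm_apply]
    · ext v
      change e.symm (H v) = v
      rw [← he, LinearEquiv.symm_apply_apply]
  have h1 : ∀ v, Ring.inverse H (H v) = v := by
    intro v
    have := Ring.inverse_mul_cancel H hu
    calc Ring.inverse H (H v) = (Ring.inverse H * H) v := rfl
      _ = v := by rw [this]; rfl
  have h2 : ∀ v, H (Ring.inverse H v) = v := by
    intro v
    have := Ring.mul_inverse_cancel H hu
    calc H (Ring.inverse H v) = (H * Ring.inverse H) v := rfl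
      _ = v := by rw [this]; rfl
  refine ⟨h1, h2, fun v => ?_⟩
  have h3 := hlow (Ring.inverse H v)
  rw [h2] at h3
  rw [le_div_iff₀ hc]
  linarith

end Vale.Agent.P207.H957
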